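import Vale.Agent.P125.PF34.Defs58

set_option linter.unusedSectionVars false
set_option linter.unusedVariables false

/-! # P125 Poly: `StCol` (triangle inequality + collapse of the four point sums) -/

namespace Vale.Agent.P125.PF34

open scoped BigOperators
open Vale.Agent.P125.Dich

theorem stCol_51 (hs : StSmall) : StCol := by
  intro S _ _ μ P hc hL n f k r r'
  obtain ⟨_, _, _, _, _, _, _, hFell, hwsym, _⟩ := hs S μ P hc hL n f
  have hw0 : ∀ a b, 0 ≤ w f a b k := fun a b => abs_nonneg _
  have hstat : ∀ a, ∑ x, μ x * (P ^ r) x a = μ a := by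
    intro a
    calc ∑ x, μ x * (P ^ r) x a = ∑ x, μ a * (P ^ r) a x :=
          Finset.sum_congr rfl fun x _ => hL.pw_rev r x a
      _ = μ a := by rw [← Finset.mul_sum, hL.pw_sum, mul_one]
  -- the three pieces
  have E1 : ∑ x, ∑ a, ∑ b, ∑ y, μ x * (P ^ r) x a * P a b * (P ^ r') b y *
      (w f a b k * |F f k y - F f k b|) = Qk μ P f r' k := by
    rw [Finset.sum_comm]
    have h1 : ∀ a, ∑ x, ∑ b, ∑ y, μ x * (P ^ r) x a * P a b * (P ^ r') b y *
        (w f a b k * |F f k y - F f k b|)
        = ∑ b, μ a * P a b * (w f a b k * Ak P f r' k b) := by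
      intro a
      calc ∑ x, ∑ b, ∑ y, μ x * (P ^ r) x a * P a b * (P ^ r') b y *
            (w f a b k * |F f k y - F f k b|)
          = ∑ x, (μ x * (P ^ r) x a) * ∑ b, P a b * (w f a b k * Ak P f r' k b) := by
            refine Finset.sum_congr rfl fun x _ => ?_
            rw [Finset.mul_sum]
            refine Finset.sum_congr rfl fun b _ => ?_
            unfold Ak
            simp only [Finset.mul_sum]
            exact Finset.sum_congr rfl fun y _ => by ring
        _ = μ a * ∑ b, P a b * (w f a b k * Ak P f r' k b) := by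
            rw [← Finset.sum_mul, hstat a]
        _ = _ := by
            rw [Finset.mul_sum]
            exact Finset.sum_congr rfl fun b _ => by ring
    simp only [h1]
    rw [Finset.sum_comm]
    unfold Qk av
    refine Finset.sum_congr rfl fun b _ => ?_
    unfold om
    beta_reduce
    rw [Finset.sum_mul, Finset.mul_sum]
    refine Finset.sum_congr rfl fun a _ => ?_
    rw [hc.2.2.2.2 a b, hwsym a b k]
    ring
  have E2 : ∑ x, ∑ a, ∑ b, ∑ y, μ x * (P ^ r) x a * P a b * (P ^ r') b y *
      (w f a b k * |F f k b - F f k a|)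
      = ∑ a, ∑ b, μ a * P a b * (w f a b k * |F f k b - F f k a|) := by
    rw [Finset.sum_comm]
    refine Finset.sum_congr rfl fun a _ => ?_
    calc ∑ x, ∑ b, ∑ y, μ x * (P ^ r) x a * P a b * (P ^ r') b y *
            (w f a b k * |F f k b - F f k a|)
        = ∑ x, (μ x * (P ^ r) x a) * ∑ b, P a b * (w f a b k * |F f k b - F f k a|) := by
          refine Finset.sum_congr rfl fun x _ => ?_
          rw [Finset.mul_sum]
          refine Finset.sum_congr rfl fun b _ => ?_
          calc ∑ y, μ x * (P ^ r) x a * P a b * (P ^ r') b y *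
                (w f a b k * |F f k b - F f k a|)
              = (μ x * (P ^ r) x a * P a b * (w f a b k * |F f k b - F f k a|))
                  * ∑ y, (P ^ r') b y := by
                rw [Finset.mul_sum]
                exact Finset.sum_congr rfl fun y _ => by ring
            _ = _ := by
                rw [hL.pw_sum]
                ring
      _ = μ a * ∑ b, P a b * (w f a b k * |F f k b - F f k a|) := by
          rw [← Finset.sum_mul, hstat a]
      _ = _ := by
          rw [Finset.mul_sum]
          exact Finset.sum_congr rfl fun b _ => by ring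
  have E3 : ∑ x, ∑ a, ∑ b, ∑ y, μ x * (P ^ r) x a * P a b * (P ^ r') b y *
      (w f a b k * |F f k a - F f k x|) = Qk μ P f r k := by
    rw [Finset.sum_comm]
    unfold Qk av
    refine Finset.sum_congr rfl fun a _ => ?_
    unfold Ak
    beta_reduce
    rw [Finset.mul_sum, Finset.mul_sum]
    refine Finset.sum_congr rfl fun x _ => ?_
    calc ∑ b, ∑ y, μ x * (P ^ r) x a * P a b * (P ^ r') b y *
            (w f a b k * |F f k a - F f k x|)
        = ∑ b, (μ x * (P ^ r) x a * |F f k a - F f k x|) * (P a b * w f a b k) := by
          refine Finset.sum_congr rfl fun b _ => ?_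
          calc ∑ y, μ x * (P ^ r) x a * P a b * (P ^ r') b y *
                (w f a b k * |F f k a - F f k x|)
              = (μ x * (P ^ r) x a * P a b * (w f a b k * |F f k a - F f k x|))
                  * ∑ y, (P ^ r') b y := by
                rw [Finset.mul_sum]
                exact Finset.sum_congr rfl fun y _ => by ring
            _ = _ := by
                rw [hL.pw_sum]
                ring
      _ = (μ x * (P ^ r) x a * |F f k a - F f k x|) * om P f k a := by
          rw [← Finset.mul_sum]
          rfl
      _ = _ := by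
          rw [hL.pw_rev r x a, abs_sub_comm]
          ring
  -- triangle inequality
  have htri : ∑ x, ∑ a, ∑ b, ∑ y, μ x * (P ^ r) x a * P a b * (P ^ r') b y *
        (w f a b k * |F f k y - F f k x|)
      ≤ ∑ x, ∑ a, ∑ b, ∑ y, (μ x * (P ^ r) x a * P a b * (P ^ r') b y *
          (w f a b k * |F f k y - F f k b|)
        + μ x * (P ^ r) x a * P a b * (P ^ r') b y * (w f a b k * |F f k b - F f k a|)
        + μ x * (P ^ r) x a * P a b * (P ^ r') b y * (w f a b k * |F f k a - F f k x|)) := by
    refine Finset.sum_le_sum fun x _ => Finset.sum_le_sum fun a _ =>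
      Finset.sum_le_sum fun b _ => Finset.sum_le_sum fun y _ => ?_
    have hW : 0 ≤ μ x * (P ^ r) x a * P a b * (P ^ r') b y :=
      mul_nonneg (mul_nonneg (mul_nonneg (hc.1 x) (hL.pw_nonneg r x a)) (hc.2.2.1 a b))
        (hL.pw_nonneg r' b y)
    have h3 : |F f k y - F f k x|
        ≤ |F f k y - F f k b| + |F f k b - F f k a| + |F f k a - F f k x| := by
      have e : F f k y - F f k x
          = (F f k y - F f k b) + (F f k b - F f k a) + (F f k a - F f k x) := by ring
      rw [e]
      exact abs_add_three _ _ _
    have h4 := mul_le_mul_of_nonneg_left (mul_le_mul_of_nonneg_left h3 (hw0 a b)) hW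
    calc _ ≤ _ := h4
      _ = _ := by ring
  refine htri.trans ?_
  simp only [Finset.sum_add_distrib]
  rw [E1, E2, E3]
  have h5 : ∑ a, ∑ b, μ a * P a b * (w f a b k * |F f k b - F f k a|)
      ≤ ∑ a, ∑ b, μ a * P a b * (w f a b k * ell f a b) :=
    Finset.sum_le_sum fun a _ => Finset.sum_le_sum fun b _ =>
      mul_le_mul_of_nonneg_left (mul_le_mul_of_nonneg_left (hFell k a b) (hw0 a b))
        (mul_nonneg (hc.1 a) (hc.2.2.1 a b))
  linarith

end Vale.Agent.P125.PF34
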