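import Vale.Agent.P125.PF34.Defs58
import Vale.Agent.P125.PF34.Arith_33

namespace Vale.Agent.P125.PF34

open scoped BigOperators
open Vale.Agent.P125.Dich

/-- scalar part: the bound of `StQ` at `t' ≤ t` is at most `5 t^(5/6)` -/
lemma core_scalar33 (t τ t' : ℕ) (ht : 1 ≤ t) (hτ1 : 1 ≤ τ)
    (h1 : (t : ℝ) ^ (2 / 3 : ℝ) ≤ τ) (h2 : (τ : ℝ) ≤ 2 * (t : ℝ) ^ (2 / 3 : ℝ)) (ht' : t' ≤ t) :
    Real.sqrt (t' * τ) + τ + (3 / 2) * t' * (τ : ℝ) ^ (-(1 / 4) : ℝ)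
      ≤ 5 * (t : ℝ) ^ (5 / 6 : ℝ) := by
  have ha : (1 : ℝ) ≤ (t : ℝ) := by exact_mod_cast ht
  have ha0 : (0 : ℝ) < (t : ℝ) := by linarith
  have hb : (1 : ℝ) ≤ (τ : ℝ) := by exact_mod_cast hτ1
  have hb0 : (0 : ℝ) < (τ : ℝ) := by linarith
  have hc : (t' : ℝ) ≤ (t : ℝ) := by exact_mod_cast ht'
  have hc0 : (0 : ℝ) ≤ (t' : ℝ) := Nat.cast_nonneg _
  set x : ℝ := (t : ℝ) ^ (1 / 6 : ℝ) with hx
  set y : ℝ := (τ : ℝ) ^ (1 / 4 : ℝ) with hy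
  have hx1 : 1 ≤ x := Real.one_le_rpow ha (by norm_num)
  have hy1 : 1 ≤ y := Real.one_le_rpow hb (by norm_num)
  have hy0 : 0 < y := by linarith
  have ex6 : x ^ 6 = (t : ℝ) := by
    rw [hx, ← Real.rpow_natCast, ← Real.rpow_mul ha0.le]; norm_num
  have ex4 : x ^ 4 = (t : ℝ) ^ (2 / 3 : ℝ) := by
    rw [hx, ← Real.rpow_natCast, ← Real.rpow_mul ha0.le]; norm_num
  have ex5 : x ^ 5 = (t : ℝ) ^ (5 / 6 : ℝ) := by
    rw [hx, ← Real.rpow_natCast, ← Real.rpow_mul ha0.le]; norm_num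
  have ey4 : y ^ 4 = (τ : ℝ) := by
    rw [hy, ← Real.rpow_natCast, ← Real.rpow_mul hb0.le]; norm_num
  have eyi : (τ : ℝ) ^ (-(1 / 4) : ℝ) = y⁻¹ := by
    rw [hy, Real.rpow_neg hb0.le]
  rw [← ex4] at h1 h2
  rw [← ex5, eyi]
  have hxy : x ≤ y := by
    by_contra hcon
    rw [not_le] at hcon
    have : y ^ 4 < x ^ 4 := pow_lt_pow_left₀ hcon (by linarith) (by norm_num)
    linarith
  have b1 : Real.sqrt (t' * τ) ≤ 3 / 2 * x ^ 5 := by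
    rw [Real.sqrt_le_iff]
    refine ⟨by positivity, ?_⟩
    have e2 : (t' : ℝ) * τ ≤ x ^ 6 * (2 * x ^ 4) := by
      rw [ex6]
      exact mul_le_mul hc h2 hb0.le ha0.le
    have e3 : (3 / 2 * x ^ 5) ^ 2 = 9 / 4 * (x ^ 6 * x ^ 4) := by ring
    have e4 : 0 ≤ x ^ 6 * x ^ 4 := by positivity
    rw [e3]
    nlinarith
  have b2 : (τ : ℝ) ≤ 2 * x ^ 5 := by
    have : x ^ 4 ≤ x ^ 5 := pow_le_pow_right₀ hx1 (by norm_num)
    linarith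
  have b3 : (t' : ℝ) * y⁻¹ ≤ x ^ 5 := by
    rw [← div_eq_mul_inv, div_le_iff₀ hy0]
    calc (t' : ℝ) ≤ x ^ 6 := by rw [ex6]; exact hc
      _ = x ^ 5 * x := by ring
      _ ≤ x ^ 5 * y := mul_le_mul_of_nonneg_left hxy (by positivity)
  nlinarith

theorem stCore_33 (hlib : StLib) (hs : StSmall) (h1 : StTwo) (h2 : StQ) : StCore := by
  intro S _ _ μ P hc n f κ t ht
  have hL := hlib S μ P hc
  have hU : 0 ≤ U μ P f := (hs S μ P hc hL n f).2.2.2.2.2.2.1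
  obtain ⟨τ, hτ1, hτa, hτb⟩ := PF3433.exists_tau t ht
  have hQ : ∀ t' : ℕ, t' ≤ t → Qsum μ P f t' ≤ 5 * (t : ℝ) ^ (5 / 6 : ℝ) * U μ P f := by
    intro t' ht'
    refine le_trans (h2 S μ P hc hL n f τ t' hτ1) ?_
    exact mul_le_mul_of_nonneg_right (core_scalar33 t τ t' ht hτ1 hτa hτb ht') hU
  have hT := h1 S μ P hc hL n f κ t
  have hsum : ∑ r ∈ Finset.range t, (Qsum μ P f (t - 1 - r) + Qsum μ P f r)
      ≤ ∑ _r ∈ Finset.range t, (2 * (5 * (t : ℝ) ^ (5 / 6 : ℝ) * U μ P f)) := by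
    refine Finset.sum_le_sum fun r hr => ?_
    have hr' : r < t := Finset.mem_range.mp hr
    have a1 := hQ (t - 1 - r) (by omega)
    have a2 := hQ r (by omega)
    linarith
  rw [Finset.sum_const, Finset.card_range, nsmul_eq_mul] at hsum
  have hX : ∑ x, ∑ y, μ x * (P ^ t) x y * (F f (κ x y) y - F f (κ x y) x) ^ 2
      ≤ 2 * t * U μ P f + 4 * t * (5 * (t : ℝ) ^ (5 / 6 : ℝ) * U μ P f) := by
    refine le_trans hT ?_
    nlinarith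
  have h22 := PF3433.final_bound' t ht (U μ P f) (5 * (t : ℝ) ^ (5 / 6 : ℝ) * U μ P f) _ hU
    le_rfl hX
  refine le_trans h22 ?_
  have : 0 ≤ (t : ℝ) ^ (11 / 6 : ℝ) * U μ P f := mul_nonneg (by positivity) hU
  nlinarith

end Vale.Agent.P125.PF34
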