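import Vale.Agent.P125.PF34.Defs58

set_option linter.unusedSectionVars false
set_option linter.unusedVariables false

namespace Vale.Agent.P125.PF34

open scoped BigOperators
open Vale.Agent.P125.Dich

theorem stDual_36 (hs : StSmall) : StDual := by
  intro S _ _ μ P hC hL n f τ s
  obtain ⟨hμ0, hμ1, hP0, hP1, hrev⟩ := hC
  -- one step drift
  set dd : Fin n → S → ℝ := fun k z => op P 1 (F f k) z - F f k z with hdd
  -- (2) telescoping
  have htel : ∀ k z, hh P f τ k z = ∑ i ∈ Finset.range τ, op P i (dd k) z := by
    intro k z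
    have h1 : ∀ i, op P i (dd k) z = op P (i + 1) (F f k) z - op P i (F f k) z := by
      intro i
      have := hL.op_sub i (op P 1 (F f k)) (F f k) z
      rw [hL.op_op] at this
      exact this
    simp only [h1]
    rw [Finset.sum_range_sub (fun i => op P i (F f k) z), hL.op_zero]
    rfl
  -- (1)+(3)
  have h13 : ∀ k, av μ (fun b => om P f k b * op P s (fun z => |hh P f τ k z|) b)
      = av μ (fun a => Mk P f τ s k a * dd k a) := by
    intro k
    rw [hL.av_adj s (om P f k) (fun z => |hh P f τ k z|)]
    have e1 : (fun x => op P s (om P f k) x * |hh P f τ k x|)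
        = fun x => ∑ i ∈ Finset.range τ, zt P f τ s k x * op P i (dd k) x := by
      funext x
      rw [← Finset.mul_sum, ← htel]
      unfold zt
      have : |hh P f τ k x| = (SignType.sign (hh P f τ k x) : ℝ) * hh P f τ k x :=
        (sign_mul_self _).symm
      rw [this]
      ring
    rw [e1]
    have e2 : av μ (fun x => ∑ i ∈ Finset.range τ, zt P f τ s k x * op P i (dd k) x)
        = ∑ i ∈ Finset.range τ, av μ (fun x => zt P f τ s k x * op P i (dd k) x) := by
      unfold av
      simp only [Finset.mul_sum]
      rw [Finset.sum_comm]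
    rw [e2]
    have e3 : ∀ i, av μ (fun x => zt P f τ s k x * op P i (dd k) x)
        = av μ (fun x => op P i (zt P f τ s k) x * dd k x) := fun i => hL.av_adj i _ _
    simp only [e3]
    unfold av Mk
    rw [Finset.sum_comm]
    refine Finset.sum_congr rfl fun x _ => ?_
    show ∑ i ∈ Finset.range τ, μ x * (op P i (zt P f τ s k) x * dd k x)
      = μ x * ((∑ i ∈ Finset.range τ, op P i (zt P f τ s k) x) * dd k x)
    rw [Finset.sum_mul, Finset.mul_sum]
  -- (4)
  have hddE : ∀ k a, dd k a = ∑ b, P a b * ∑ j, (if j ≤ k then (f b j - f a j) else 0) := by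
    intro k a
    rw [hdd]
    simp only
    rw [hL.op_one]
    have : F f k a = ∑ b, P a b * F f k a := by rw [← Finset.sum_mul, hP1, one_mul]
    rw [this, ← Finset.sum_sub_distrib]
    refine Finset.sum_congr rfl fun b _ => ?_
    rw [← mul_sub]
    congr 1
    unfold F
    rw [← Finset.sum_sub_distrib]
    refine Finset.sum_congr rfl fun j _ => ?_
    split_ifs <;> ring
  set T : ℝ := ∑ a, ∑ b, μ a * P a b * ∑ j, (f b j - f a j) * UU P f τ s j a with hT
  have hRT : Rr μ P f τ s = T := by
    unfold Rr
    simp only [h13]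
    unfold av
    rw [Finset.sum_comm, hT]
    refine Finset.sum_congr rfl fun a _ => ?_
    simp only [hddE]
    calc ∑ k, μ a * (Mk P f τ s k a * ∑ b, P a b * ∑ j, (if j ≤ k then (f b j - f a j) else 0))
        = ∑ k, ∑ b, μ a * P a b * ∑ j, (if j ≤ k then (f b j - f a j) * Mk P f τ s k a else 0) := by
          refine Finset.sum_congr rfl fun k _ => ?_
          rw [Finset.mul_sum, Finset.mul_sum]
          refine Finset.sum_congr rfl fun b _ => ?_
          rw [Finset.mul_sum, Finset.mul_sum, Finset.mul_sum, Finset.mul_sum]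
          refine Finset.sum_congr rfl fun j _ => ?_
          split_ifs <;> ring
      _ = ∑ b, μ a * P a b * ∑ k, ∑ j, (if j ≤ k then (f b j - f a j) * Mk P f τ s k a else 0) := by
          rw [Finset.sum_comm]
          refine Finset.sum_congr rfl fun b _ => ?_
          rw [Finset.mul_sum]
      _ = ∑ b, μ a * P a b * ∑ j, (f b j - f a j) * UU P f τ s j a := by
          refine Finset.sum_congr rfl fun b _ => ?_
          congr 1
          rw [Finset.sum_comm]
          refine Finset.sum_congr rfl fun j _ => ?_
          unfold UU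
          rw [Finset.mul_sum]
          refine Finset.sum_congr rfl fun k _ => ?_
          split_ifs <;> ring
  -- (5) flip
  have hflip : T = - ∑ a, ∑ b, μ a * P a b * ∑ j, (f b j - f a j) * UU P f τ s j b := by
    rw [hT, Finset.sum_comm, ← Finset.sum_neg_distrib]
    refine Finset.sum_congr rfl fun a _ => ?_
    rw [← Finset.sum_neg_distrib]
    refine Finset.sum_congr rfl fun b _ => ?_
    rw [hrev b a, ← mul_neg, ← Finset.sum_neg_distrib]
    congr 1
    refine Finset.sum_congr rfl fun j _ => ?_
    ring
  have hhalf : T = (1 / 2) * ∑ a, ∑ b, μ a * P a b *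
      ∑ j, (f b j - f a j) * (UU P f τ s j a - UU P f τ s j b) := by
    have e : ∑ a, ∑ b, μ a * P a b * ∑ j, (f b j - f a j) * (UU P f τ s j a - UU P f τ s j b)
        = T - ∑ a, ∑ b, μ a * P a b * ∑ j, (f b j - f a j) * UU P f τ s j b := by
      rw [hT, ← Finset.sum_sub_distrib]
      refine Finset.sum_congr rfl fun a _ => ?_
      rw [← Finset.sum_sub_distrib]
      refine Finset.sum_congr rfl fun b _ => ?_
      rw [← mul_sub, ← Finset.sum_sub_distrib]
      congr 1
      refine Finset.sum_congr rfl fun j _ => ?_
      ring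
    rw [e]
    linarith
  rw [hRT, hhalf]
  apply mul_le_mul_of_nonneg_left _ (by norm_num)
  refine Finset.sum_le_sum fun a _ => Finset.sum_le_sum fun b _ => ?_
  apply mul_le_mul_of_nonneg_left _ (mul_nonneg (hμ0 a) (hP0 a b))
  refine Finset.sum_le_sum fun j _ => ?_
  unfold w
  rw [← abs_mul]
  exact le_abs_self _

end Vale.Agent.P125.PF34
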