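import Vale.Agent.P125.PF34.Defs58

set_option linter.unusedSectionVars false
set_option linter.unusedVariables false

/-!
# P125 Poly: the remainder of the block decomposition, in the shape of `Defs58`
-/

namespace Vale.Agent.P125.PF34

open scoped BigOperators
open Vale.Agent.P125.Dich

theorem stRem_1 (hs : StSmall) (h1 : StTriv1) : StRem := by
  intro S _ _ μ P hc hL n f m ρ
  obtain ⟨om0, omsum, lb0, l20, avl2, avlb, U0, Fle, wsym, ellsym⟩ := hs S μ P hc hL n f
  set B : S → ℝ := fun z => ∑ i ∈ Finset.range ρ, op P i (lbar P f) z with hB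
  have key : ∀ k b, Ak P f (m + ρ) k b ≤ Ak P f m k b + op P m B b := by
    intro k b
    have s1 : Ak P f (m + ρ) k b ≤ Ak P f m k b + op P m (Ak P f ρ k) b := by
      unfold Ak op
      simp only [hL.pw_add m ρ b]
      calc ∑ y, (∑ z, (P ^ m) b z * (P ^ ρ) z y) * |F f k y - F f k b|
          = ∑ z, ∑ y, (P ^ m) b z * (P ^ ρ) z y * |F f k y - F f k b| := by
            simp only [Finset.sum_mul]
            rw [Finset.sum_comm]
        _ ≤ ∑ z, ∑ y, (P ^ m) b z * (P ^ ρ) z y *
              (|F f k z - F f k b| + |F f k y - F f k z|) := by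
            refine Finset.sum_le_sum fun z _ => Finset.sum_le_sum fun y _ => ?_
            refine mul_le_mul_of_nonneg_left ?_
              (mul_nonneg (hL.pw_nonneg _ _ _) (hL.pw_nonneg _ _ _))
            have : F f k y - F f k b = (F f k z - F f k b) + (F f k y - F f k z) := by ring
            rw [this]
            exact abs_add_le _ _
        _ = ∑ z, (P ^ m) b z * |F f k z - F f k b| +
              ∑ z, (P ^ m) b z * ∑ y, (P ^ ρ) z y * |F f k y - F f k z| := by
            rw [← Finset.sum_add_distrib]
            refine Finset.sum_congr rfl fun z _ => ?_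
            have : ∀ y, (P ^ m) b z * (P ^ ρ) z y * (|F f k z - F f k b| + |F f k y - F f k z|) =
                (P ^ m) b z * |F f k z - F f k b| * (P ^ ρ) z y +
                  (P ^ m) b z * ((P ^ ρ) z y * |F f k y - F f k z|) := fun y => by ring
            simp only [this]
            rw [Finset.sum_add_distrib, ← Finset.mul_sum, hL.pw_sum ρ z, mul_one,
              ← Finset.mul_sum]
    exact s1.trans (add_le_add le_rfl
      (hL.op_mono m _ _ (fun z => h1 S μ P hc hL n f k ρ z) b))
  have e1 : Qsum μ P f (m + ρ) ≤ Qsum μ P f m + av μ (fun b => lbar P f b * op P m B b) := by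
    unfold Qsum
    have a1 : ∀ k, Qk μ P f (m + ρ) k ≤
        Qk μ P f m k + av μ (fun b => om P f k b * op P m B b) := by
      intro k
      unfold Qk
      refine (hL.av_mono _ _
        (fun b => mul_le_mul_of_nonneg_left (key k b) (om0 k b))).trans (le_of_eq ?_)
      simp only [av, mul_add, Finset.sum_add_distrib]
    refine (Finset.sum_le_sum fun k _ => a1 k).trans (le_of_eq ?_)
    rw [Finset.sum_add_distrib]
    congr 1
    simp only [av]
    rw [Finset.sum_comm]
    refine Finset.sum_congr rfl fun b _ => ?_
    rw [← omsum b, Finset.sum_mul, Finset.mul_sum]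
  have e2 : av μ (fun b => lbar P f b * op P m B b) ≤ ρ * U μ P f := by
    have o1 : ∀ b, op P m B b = ∑ i ∈ Finset.range ρ, op P (m + i) (lbar P f) b := by
      intro b
      rw [hB, hL.op_sum ℕ (Finset.range ρ) m (fun i => op P i (lbar P f)) b]
      refine Finset.sum_congr rfl fun i _ => ?_
      rw [hL.op_op]
    have t1 : ∀ i, av μ (fun b => lbar P f b * op P (m + i) (lbar P f) b) ≤ U μ P f := by
      intro i
      refine (hL.av_cs _ _).trans ?_
      have c1 : av μ (fun x => op P (m + i) (lbar P f) x ^ 2) ≤ U μ P f := by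
        refine (hL.av_mono _ _ (fun x => hL.sq_op (m + i) (lbar P f) x)).trans ?_
        rw [hL.av_op]
        exact avlb
      calc _ ≤ Real.sqrt (U μ P f) * Real.sqrt (U μ P f) :=
            mul_le_mul (Real.sqrt_le_sqrt avlb) (Real.sqrt_le_sqrt c1) (Real.sqrt_nonneg _)
              (Real.sqrt_nonneg _)
        _ = U μ P f := Real.mul_self_sqrt U0
    have t2 : av μ (fun b => lbar P f b * op P m B b) =
        ∑ i ∈ Finset.range ρ, av μ (fun b => lbar P f b * op P (m + i) (lbar P f) b) := by
      simp only [av, o1, Finset.mul_sum]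
      rw [Finset.sum_comm]
    rw [t2]
    calc _ ≤ ∑ i ∈ Finset.range ρ, U μ P f := Finset.sum_le_sum fun i _ => t1 i
      _ = ρ * U μ P f := by simp
  linarith

end Vale.Agent.P125.PF34
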