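import Vale.Agent.P125.PF34.Lib_16
import Vale.Agent.P125.PF34.Own_33
import Vale.Agent.P125.PF34.OwnT_27
import Vale.Agent.P125.PF34.Tel_51
import Vale.Agent.P125.PF34.Small_93
import Vale.Agent.P125.PF34.Col_51
import Vale.Agent.P125.PF34.Two_77
import Vale.Agent.P125.PF34.Triv1_69
import Vale.Agent.P125.PF34.Triv2_85
import Vale.Agent.P125.PF34.Sqrt_89
import Vale.Agent.P125.PF34.Rem_1
import Vale.Agent.P125.PF34.Blk_34
import Vale.Agent.P125.PF34.Dual_36
import Vale.Agent.P125.PF34.Down_87
import Vale.Agent.P125.PF34.Back_88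
import Vale.Agent.P125.PF34.En_56
import Vale.Agent.P125.PF34.BB_38
import Vale.Agent.P125.PF34.Xi_87
import Vale.Agent.P125.PF34.R_14
import Vale.Agent.P125.PF34.Q_64
import Vale.Agent.P125.PF34.Core_33
import Vale.Agent.P125.PF34.Wrap_75

/-! # P125: polynomial rate for the summing operators, assembly of the frozen copies -/

namespace Vale.Agent.P125.PF34

open scoped BigOperators

theorem stCore : StCore := by
  have hLib : StLib := stLib_16
  have hSm : StSmall := stSmall_93
  have hOwn : StOwn := stOwn_33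
  have hOwnT : StOwnT := stOwnT_27 hOwn
  have hTel : StTel := stTel_51
  have hCol : StCol := stCol_51 hSm
  have hTwo : StTwo := stTwo_77 hOwn hTel hCol hSm
  have hT1 : StTriv1 := stTriv1_69 hSm
  have hT2 : StTriv2 := stTriv2_85 hSm
  have hSqrt : StSqrt := stSqrt_89
  have hRem : StRem := stRem_1 hSm hT1
  have hBlk : StBlk := stBlk_34 hLib hSm hT2 hSqrt
  have hDual : StDual := stDual_36 hSm
  have hDown : StDown := stDown_87 hOwnT hSm
  have hBack : StBack := stBack_88 hSm
  have hEn : StEn := stEn_56 hSm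
  have hBB : StBB := stBB_38 hSm
  have hXi : StXi := stXi_87 hSm hEn hBB
  have hR : StR := stR_14 hSm hDual hDown hBack hXi
  have hQ : StQ := stQ_64 hSm hRem hBlk hR
  exact stCore_33 hLib hSm hTwo hQ

end Vale.Agent.P125.PF34
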